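import Vale.Agent.Lib.P028L.MLL
import Vale.Agent.Lib.P028K.CIcell

/-! Part CIcellL: one cell of the core inequality. Copy of `cell_bound` of `P028K/CIcell.lean`, with the private helpers of that file, and `ML_main_L`. -/

open Finset

namespace Vale.Agent.Lib.P028L

open Vale.Agent.Lib.P028
open Vale.Agent.Lib.P028T
open Vale.Agent.Lib.P028T.GcdAux
open Vale.Agent.Lib.P028G
open Vale.Agent.Lib.P028K

noncomputable section

private lemma Nn_ne_zero {Mm d n : ℕ} (hM : 1 ≤ Mm) (hn : n ∈ Nn Mm d) : n ≠ 0 := by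
  rintro rfl
  have := (Finset.mem_filter.1 hn).2.1
  simp at this
  omega

/-- The sum of the kernels over twists and divisors, for a cell. -/
private lemma sum_T_le {F : Finset ℕ} (hF : ∀ q ∈ F, 1 ≤ q) {M₁ M₂ L : ℕ} (hM₁ : 1 ≤ M₁) (hM₂ : 1 ≤ M₂)
    {γ E : ℝ} (hE : 0 ≤ E)
    (h₁ : ∑ j ∈ Ico 1 L, ∑ d ∈ Icc 1 (2 * M₁), (BBc F (Nn M₁ d) (Nn M₁ d) (((j * d : ℕ):ℝ) * γ)).re
        ≤ (L:ℝ) * F.card * M₁ * E)
    (h₂ : ∑ j ∈ Ico 1 L, ∑ d ∈ Icc 1 (2 * M₂), (BBc F (Nn M₂ d) (Nn M₂ d) (((j * d : ℕ):ℝ) * γ)).re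
        ≤ (L:ℝ) * F.card * M₂ * E) :
    ∑ j ∈ Ico 1 L, ‖∑ d ∈ Icc 1 (2 * min M₁ M₂), ((ArithmeticFunction.moebius d : ℤ) : ℂ) *
        BBc F (Nn M₂ d) (Nn M₁ d) (((d : ℕ):ℝ) * ((j:ℝ) * γ))‖
      ≤ (L:ℝ) * F.card * Real.sqrt ((M₁:ℝ) * M₂) * E := by
  have hF0 : ∀ q ∈ F, q ≠ 0 := fun q hq => by have := hF q hq; omega
  set D := 2 * min M₁ M₂ with hD
  set s := (Ico 1 L) ×ˢ (Icc 1 D) with hs
  let X : ℕ × ℕ → ℝ := fun x => (BBc F (Nn M₂ x.2) (Nn M₂ x.2) (((x.1 * x.2 : ℕ):ℝ) * γ)).re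
  let Y : ℕ × ℕ → ℝ := fun x => (BBc F (Nn M₁ x.2) (Nn M₁ x.2) (((x.1 * x.2 : ℕ):ℝ) * γ)).re
  have hX0 : ∀ x, 0 ≤ X x := fun x =>
    BB_re_nonneg F _ _ hF0 (fun n hn => Nn_ne_zero hM₂ hn)
  have hY0 : ∀ x, 0 ≤ Y x := fun x =>
    BB_re_nonneg F _ _ hF0 (fun n hn => Nn_ne_zero hM₁ hn)
  have hterm : ∀ j ∈ Ico 1 L, ‖∑ d ∈ Icc 1 D, ((ArithmeticFunction.moebius d : ℤ) : ℂ) *
        BBc F (Nn M₂ d) (Nn M₁ d) (((d : ℕ):ℝ) * ((j:ℝ) * γ))‖
      ≤ ∑ d ∈ Icc 1 D, Real.sqrt (X (j, d)) * Real.sqrt (Y (j, d)) := by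
    intro j _
    refine (norm_sum_le _ _).trans (Finset.sum_le_sum fun d _ => ?_)
    rw [norm_mul]
    have h1 : ‖((ArithmeticFunction.moebius d : ℤ) : ℂ)‖ ≤ 1 := by
      rw [Complex.norm_intCast]
      exact_mod_cast ArithmeticFunction.abs_moebius_le_one
    have hθ : ((d : ℕ):ℝ) * ((j:ℝ) * γ) = ((j * d : ℕ):ℝ) * γ := by push_cast; ring
    rw [hθ]
    have h2 := BB_cauchy F (Nn M₂ d) (Nn M₁ d) (((j * d : ℕ):ℝ) * γ) hF0
      (fun n hn => Nn_ne_zero hM₂ hn) (fun n hn => Nn_ne_zero hM₁ hn)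
    have h3 : ‖BBc F (Nn M₂ d) (Nn M₁ d) (((j * d : ℕ):ℝ) * γ)‖
        ≤ Real.sqrt (X (j, d)) * Real.sqrt (Y (j, d)) := by
      rw [← Real.sqrt_mul (hX0 _)]
      exact Real.le_sqrt_of_sq_le h2
    calc _ ≤ 1 * ‖BBc F (Nn M₂ d) (Nn M₁ d) (((j * d : ℕ):ℝ) * γ)‖ := by gcongr
      _ ≤ _ := by rw [one_mul]; exact h3
  have hS : ∑ j ∈ Ico 1 L, ∑ d ∈ Icc 1 D, Real.sqrt (X (j, d)) * Real.sqrt (Y (j, d))
      = ∑ x ∈ s, Real.sqrt (X x) * Real.sqrt (Y x) := by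
    rw [hs, Finset.sum_product]
  have hCS := Real.sum_sqrt_mul_sqrt_le s hX0 hY0
  have hXs : ∑ x ∈ s, X x ≤ (L:ℝ) * F.card * M₂ * E := by
    refine le_trans ?_ h₂
    rw [hs, Finset.sum_product]
    refine Finset.sum_le_sum fun j _ => ?_
    refine Finset.sum_le_sum_of_subset_of_nonneg ?_ fun d _ _ => hX0 (j, d)
    exact Finset.Icc_subset_Icc le_rfl (by
      have := min_le_right M₁ M₂
      omega)
  have hYs : ∑ x ∈ s, Y x ≤ (L:ℝ) * F.card * M₁ * E := by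
    refine le_trans ?_ h₁
    rw [hs, Finset.sum_product]
    refine Finset.sum_le_sum fun j _ => ?_
    refine Finset.sum_le_sum_of_subset_of_nonneg ?_ fun d _ _ => hY0 (j, d)
    exact Finset.Icc_subset_Icc le_rfl (by
      have := min_le_left M₁ M₂
      omega)
  have hfin : Real.sqrt ((L:ℝ) * F.card * M₂ * E) * Real.sqrt ((L:ℝ) * F.card * M₁ * E)
      = (L:ℝ) * F.card * Real.sqrt ((M₁:ℝ) * M₂) * E := by
    have ha : 0 ≤ (L:ℝ) * F.card * E := by positivity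
    have e1 : (L:ℝ) * F.card * M₂ * E = ((L:ℝ) * F.card * E) * M₂ := by ring
    have e2 : (L:ℝ) * F.card * M₁ * E = ((L:ℝ) * F.card * E) * M₁ := by ring
    rw [e1, e2, ← Real.sqrt_mul (by positivity)]
    have e3 : ((L:ℝ) * F.card * E) * M₂ * (((L:ℝ) * F.card * E) * M₁)
        = ((L:ℝ) * F.card * E) ^ 2 * ((M₁:ℝ) * M₂) := by ring
    rw [e3, Real.sqrt_mul (by positivity), Real.sqrt_sq ha]
    ring
  calc _ ≤ ∑ j ∈ Ico 1 L, ∑ d ∈ Icc 1 D, Real.sqrt (X (j, d)) * Real.sqrt (Y (j, d)) :=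
        Finset.sum_le_sum hterm
    _ = ∑ x ∈ s, Real.sqrt (X x) * Real.sqrt (Y x) := hS
    _ ≤ Real.sqrt (∑ x ∈ s, X x) * Real.sqrt (∑ x ∈ s, Y x) := hCS
    _ ≤ Real.sqrt ((L:ℝ) * F.card * M₂ * E) * Real.sqrt ((L:ℝ) * F.card * M₁ * E) := by
        gcongr
    _ = _ := hfin

/-- The character sum of a finite family of integers `x p`. -/
private def TT {ι : Type} (C : Finset ι) (w : ι → ℝ) (x : ℝ) : ℂ := ∑ p ∈ C, ee (x * w p)

private lemma norm_TT_neg {ι : Type} (C : Finset ι) (w : ι → ℝ) (x : ℝ) :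
    ‖TT C w (-x)‖ = ‖TT C w x‖ := by
  have h : TT C w (-x) = (starRingEnd ℂ) (TT C w x) := by
    unfold TT
    rw [map_sum]
    refine Finset.sum_congr rfl fun p _ => ?_
    rw [← ee_neg]
    congr 1
    ring
  rw [h, Complex.norm_conj]

private lemma norm_TT_zero {ι : Type} (C : Finset ι) (w : ι → ℝ) :
    ‖TT C w 0‖ = C.card := by
  unfold TT
  simp [ee_zero]

/-- Fejér: the sum of the kernel is at most the diagonal plus the twisted sums. -/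
private lemma sum_fej_le {ι : Type} (C : Finset ι) (w : ι → ℝ) (γ : ℝ) (L : ℕ) :
    (∑ p ∈ C, Fej L (w p * γ)) * (L:ℝ) ^ 2 ≤
      (L:ℝ) * C.card + 2 * (L:ℝ) * ∑ j ∈ Ico 1 L, ‖TT C w ((j:ℝ) * γ)‖ := by
  have hexp : (((∑ p ∈ C, Fej L (w p * γ) : ℝ) : ℂ)) * (L:ℂ) ^ 2
      = ∑ a ∈ range L, ∑ a' ∈ range L, TT C w (((a:ℝ) - a') * γ) := by
    push_cast
    rw [Finset.sum_mul]
    simp_rw [Fej_expand]
    rw [Finset.sum_comm]
    refine Finset.sum_congr rfl fun a _ => ?_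
    rw [Finset.sum_comm]
    refine Finset.sum_congr rfl fun a' _ => ?_
    unfold TT
    refine Finset.sum_congr rfl fun p _ => ?_
    congr 1
    ring
  have hX0 : 0 ≤ ∑ p ∈ C, Fej L (w p * γ) := Finset.sum_nonneg fun _ _ => Fej_nonneg _ _
  have hnorm : (∑ p ∈ C, Fej L (w p * γ)) * (L:ℝ) ^ 2 =
      ‖∑ a ∈ range L, ∑ a' ∈ range L, TT C w (((a:ℝ) - a') * γ)‖ := by
    rw [← hexp, norm_mul, Complex.norm_real, norm_pow, Complex.norm_natCast, Real.norm_eq_abs,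
      abs_of_nonneg hX0]
  set S := ∑ j ∈ Ico 1 L, ‖TT C w ((j:ℝ) * γ)‖ with hS
  have hS0 : 0 ≤ S := Finset.sum_nonneg fun _ _ => norm_nonneg _
  have hfix : ∀ a ∈ range L, ∑ a' ∈ range L, ‖TT C w (((a:ℝ) - a') * γ)‖ ≤ (C.card : ℝ) + 2 * S := by
    intro a ha
    have haL := Finset.mem_range.1 ha
    set U : ℕ → ℝ := fun j => ‖TT C w ((j:ℝ) * γ)‖ with hU
    have hU0 : ∀ j, 0 ≤ U j := fun j => norm_nonneg _
    have hpoint : ∀ a' ∈ range L, ‖TT C w (((a:ℝ) - a') * γ)‖ ≤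
        (if a' = a then (C.card : ℝ) else 0) + (if a' < a then U (a - a') else 0)
          + (if a < a' then U (a' - a) else 0) := by
      intro a' _
      rcases lt_trichotomy a' a with h | h | h
      · simp only [h, if_true, h.ne, if_false, not_lt.2 h.le, add_zero, zero_add, hU]
        have : ((a:ℝ) - a') = ((a - a' : ℕ):ℝ) := by
          rw [Nat.cast_sub h.le]
        rw [this]
      · subst h
        simp only [if_true, lt_irrefl, if_false, add_zero, sub_self, zero_mul]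
        rw [norm_TT_zero]
      · simp only [h, if_true, h.ne', if_false, not_lt.2 h.le, zero_add, hU]
        have : ((a:ℝ) - a') * γ = -(((a' - a : ℕ):ℝ) * γ) := by
          rw [Nat.cast_sub h.le]
          ring
        rw [this, norm_TT_neg]
    have h1 : ∑ a' ∈ range L, (if a' = a then (C.card : ℝ) else 0) = C.card := by
      rw [Finset.sum_ite_eq' (range L) a]
      simp [ha]
    have h2 : ∑ a' ∈ range L, (if a' < a then U (a - a') else 0) ≤ S := by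
      rw [← Finset.sum_filter]
      have hinj : Set.InjOn (fun a' => a - a') (((range L).filter fun a' => a' < a) : Finset ℕ) := by
        intro x hx y hy hxy
        have hx' := (Finset.mem_filter.1 hx).2
        have hy' := (Finset.mem_filter.1 hy).2
        simp only at hxy
        omega
      have h3 := Finset.sum_image (f := U) hinj
      rw [← h3]
      refine Finset.sum_le_sum_of_subset_of_nonneg ?_ fun _ _ _ => hU0 _
      intro j hj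
      obtain ⟨x, hx, rfl⟩ := Finset.mem_image.1 hj
      have hx' := (Finset.mem_filter.1 hx).2
      exact Finset.mem_Ico.2 ⟨by omega, by omega⟩
    have h3 : ∑ a' ∈ range L, (if a < a' then U (a' - a) else 0) ≤ S := by
      rw [← Finset.sum_filter]
      have hinj : Set.InjOn (fun a' => a' - a) (((range L).filter fun a' => a < a') : Finset ℕ) := by
        intro x hx y hy hxy
        have hx' := (Finset.mem_filter.1 hx).2
        have hy' := (Finset.mem_filter.1 hy).2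
        simp only at hxy
        omega
      have h3 := Finset.sum_image (f := U) hinj
      rw [← h3]
      refine Finset.sum_le_sum_of_subset_of_nonneg ?_ fun _ _ _ => hU0 _
      intro j hj
      obtain ⟨x, hx, rfl⟩ := Finset.mem_image.1 hj
      have hx' := Finset.mem_filter.1 hx
      have hx2 := Finset.mem_range.1 hx'.1
      exact Finset.mem_Ico.2 ⟨by omega, by omega⟩
    calc _ ≤ ∑ a' ∈ range L, ((if a' = a then (C.card : ℝ) else 0) + (if a' < a then U (a - a') else 0)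
          + (if a < a' then U (a' - a) else 0)) := Finset.sum_le_sum hpoint
      _ = _ := by rw [Finset.sum_add_distrib, Finset.sum_add_distrib]
      _ ≤ (C.card : ℝ) + S + S := by
          rw [h1]
          linarith
      _ = _ := by ring
  rw [hnorm]
  calc _ ≤ ∑ a ∈ range L, ∑ a' ∈ range L, ‖TT C w (((a:ℝ) - a') * γ)‖ :=
        (norm_sum_le _ _).trans (Finset.sum_le_sum fun a _ => norm_sum_le _ _)
    _ ≤ ∑ _a ∈ range L, ((C.card : ℝ) + 2 * S) := Finset.sum_le_sum hfix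
    _ = _ := by
        rw [Finset.sum_const, Finset.card_range, nsmul_eq_mul]
        ring

/-- The numerics of the length of the kernel. -/
private lemma L_facts {n H : ℕ} (hH : 1 ≤ H) (hcase : 48 * H ≤ 2 ^ n) :
    1 ≤ 2 ^ n / (48 * H) ∧ ((2 ^ n / (48 * H) : ℕ) : ℝ) * (48 * (H:ℝ)) ≤ (2:ℝ) ^ n ∧
      (2:ℝ) ^ n ≤ 2 * ((2 ^ n / (48 * H) : ℕ) : ℝ) * (48 * (H:ℝ)) := by
  set L : ℕ := 2 ^ n / (48 * H) with hL
  have hL1 : 1 ≤ L := Nat.div_pos hcase (by omega)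
  refine ⟨hL1, ?_, ?_⟩
  · have h3 : L * (48 * H) ≤ 2 ^ n := Nat.div_mul_le_self _ _
    have h4 : ((L * (48 * H) : ℕ) : ℝ) ≤ ((2 ^ n : ℕ) : ℝ) := by exact_mod_cast h3
    push_cast at h4
    exact h4
  · have h3 : 2 ^ n < (L + 1) * (48 * H) := by
      have := Nat.lt_mul_div_succ (2 ^ n) (show 0 < 48 * H by omega)
      rw [mul_comm] at this
      exact this
    have h3' : 2 ^ n ≤ 2 * L * (48 * H) := by
      have h5 : (L + 1) * (48 * H) ≤ (2 * L) * (48 * H) := Nat.mul_le_mul_right _ (by omega)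
      omega
    have h4 : ((2 ^ n : ℕ) : ℝ) ≤ ((2 * L * (48 * H) : ℕ) : ℝ) := by exact_mod_cast h3'
    push_cast at h4
    exact h4

/-- The final numerics of the cell bound. -/
private lemma cell_assemble {N Hr Lr Cc Cc' X S Fc Q E : ℝ} (hN : 0 < N) (hH : 0 < Hr) (hL : 0 < Lr)
    (hL3 : N ≤ 2 * Lr * (48 * Hr)) (hCc : 0 ≤ Cc) (hfej : X * Lr ^ 2 ≤ Lr * Cc + 2 * Lr * S)
    (hcount : Cc' ≤ 4 * X) (hS : S ≤ Lr * Fc * Q * E) (hpos : 0 ≤ Fc * Q * E) :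
    Cc' ≤ 400 * Hr / N * Cc + 48 * Fc * Q * E := by
  have hL2' : (0:ℝ) < Lr ^ 2 := by positivity
  have hXle : X ≤ Cc / Lr + 2 * S / Lr := by
    have h1 : X * Lr ^ 2 ≤ (Cc / Lr + 2 * S / Lr) * Lr ^ 2 := by
      have e : (Cc / Lr + 2 * S / Lr) * Lr ^ 2 = Lr * Cc + 2 * Lr * S := by
        field_simp
      rw [e]
      exact hfej
    exact le_of_mul_le_mul_right h1 hL2'
  have hdiag : 4 * (Cc / Lr) ≤ 400 * Hr / N * Cc := by
    have h1 : 4 / Lr ≤ 400 * Hr / N := by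
      rw [div_le_div_iff₀ hL hN]
      have h2 : 0 ≤ Lr * Hr := by positivity
      nlinarith
    calc 4 * (Cc / Lr) = 4 / Lr * Cc := by ring
      _ ≤ _ := mul_le_mul_of_nonneg_right h1 hCc
  have hoff : 4 * (2 * S / Lr) ≤ 8 * (Fc * Q * E) := by
    have e : 4 * (2 * S / Lr) = 8 * S / Lr := by ring
    rw [e, div_le_iff₀ hL]
    have e2 : Lr * Fc * Q * E = Lr * (Fc * Q * E) := by ring
    rw [e2] at hS
    linarith
  have e3 : 48 * Fc * Q * E = 48 * (Fc * Q * E) := by ring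
  rw [e3]
  linarith

/-- The cell bound. Copy of `cell_bound` with `ML_main_L`. -/
theorem cell_bound_L {γ c₀ : ℝ} {κ : ℕ} (hγ : Dio γ c₀ κ) (hc₀ : 0 < c₀) (hκ : 1 ≤ κ) :
    ∃ n0 : ℕ, ∀ n : ℕ, n0 ≤ n → ∀ F : Finset ℕ, (∀ q ∈ F, 1 ≤ q) → 1 ≤ F.card →
      (2:ℝ) ^ n ≤ F.card → (F.card : ℝ) ≤ 2 * 2 ^ n * GG n → ∀ M₁ M₂ : ℕ,
      ((2:ℝ) ^ n) ^ ((1:ℝ) / (4 * ((κ:ℝ) + 1))) ≤ M₁ → ((2:ℝ) ^ n) ^ ((1:ℝ) / (4 * ((κ:ℝ) + 1))) ≤ M₂ →
      (max M₁ M₂ : ℕ) ≤ 2 ^ n →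
      (((F ×ˢ F).filter (fun p => p.1 ≠ p.2 ∧ M₂ ≤ lowA p.1 p.2 ∧ lowA p.1 p.2 < 2 * M₂ ∧ M₁ ≤ lowB p.1 p.2 ∧ lowB p.1 p.2 < 2 * M₁ ∧
          dn (((lowA p.1 p.2 : ℝ) - lowB p.1 p.2) * γ) < 8 * (max M₁ M₂ : ℕ) / (2:ℝ) ^ n)).card : ℝ)
        ≤ 400 * (max M₁ M₂ : ℕ) / (2:ℝ) ^ n * (((F ×ˢ F).filter (fun p => M₂ ≤ lowA p.1 p.2 ∧ lowA p.1 p.2 < 2 * M₂ ∧ M₁ ≤ lowB p.1 p.2 ∧ lowB p.1 p.2 < 2 * M₁)).card : ℝ)
          + 48 * F.card * Real.sqrt ((M₁:ℝ) * M₂) * Real.exp (XL n) := by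
  obtain ⟨n0, hn0⟩ := ML_main_L hγ hc₀ hκ
  refine ⟨n0, fun n hn F hF hK1 hKn hKN M₁ M₂ hM₁ hM₂ hH => ?_⟩
  set N : ℝ := (2:ℝ) ^ n with hN
  have hNpos : 0 < N := by positivity
  have hN1 : 1 ≤ N := one_le_pow₀ (by norm_num)
  have hexp0 : 0 ≤ (1:ℝ) / (4 * ((κ:ℝ) + 1)) := by positivity
  have hpow1 : 1 ≤ N ^ ((1:ℝ) / (4 * ((κ:ℝ) + 1))) := Real.one_le_rpow hN1 hexp0
  have hM₁1 : 1 ≤ M₁ := by
    have : (1:ℝ) ≤ M₁ := hpow1.trans hM₁
    exact_mod_cast this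
  have hM₂1 : 1 ≤ M₂ := by
    have : (1:ℝ) ≤ M₂ := hpow1.trans hM₂
    exact_mod_cast this
  set H : ℕ := max M₁ M₂ with hHd
  have hH1 : 1 ≤ H := le_max_of_le_left hM₁1
  have hHpos : (0:ℝ) < H := by exact_mod_cast hH1
  set E := Real.exp (XL n) with hE
  have hE0 : 0 ≤ E := (Real.exp_pos _).le
  set C := (F ×ˢ F).filter (fun p => M₂ ≤ lowA p.1 p.2 ∧ lowA p.1 p.2 < 2 * M₂ ∧ M₁ ≤ lowB p.1 p.2 ∧ lowB p.1 p.2 < 2 * M₁) with hC
  set C' := (F ×ˢ F).filter (fun p => p.1 ≠ p.2 ∧ M₂ ≤ lowA p.1 p.2 ∧ lowA p.1 p.2 < 2 * M₂ ∧ M₁ ≤ lowB p.1 p.2 ∧ lowB p.1 p.2 < 2 * M₁ ∧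
          dn (((lowA p.1 p.2 : ℝ) - lowB p.1 p.2) * γ) < 8 * (H : ℝ) / N) with hC'
  have hsub : C' ⊆ C := by
    intro p hp
    rw [hC', Finset.mem_filter] at hp
    obtain ⟨h1, _, h2, h3, h4, h5, _⟩ := hp
    exact Finset.mem_filter.2 ⟨h1, h2, h3, h4, h5⟩
  have hcardle : (C'.card : ℝ) ≤ C.card := by exact_mod_cast Finset.card_le_card hsub
  have hsq0 : 0 ≤ Real.sqrt ((M₁:ℝ) * M₂) := Real.sqrt_nonneg _
  have hF0 : (0:ℝ) ≤ F.card := by positivity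
  have hlast0 : 0 ≤ 48 * (F.card : ℝ) * Real.sqrt ((M₁:ℝ) * M₂) * E := by positivity
  by_cases hcase : N < 48 * (H:ℝ)
  · -- the coefficient is at least one
    have h1 : 1 ≤ 400 * (H:ℝ) / N := by
      rw [le_div_iff₀ hNpos]
      nlinarith
    have h2 : (C.card : ℝ) ≤ 400 * (H:ℝ) / N * C.card := by
      have : (0:ℝ) ≤ C.card := by positivity
      nlinarith
    linarith
  push Not at hcase
  have hcaseN : 48 * H ≤ 2 ^ n := by
    have : ((48 * H : ℕ) : ℝ) ≤ ((2 ^ n : ℕ) : ℝ) := by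
      push_cast
      exact hcase
    exact_mod_cast this
  set L : ℕ := 2 ^ n / (48 * H) with hL
  obtain ⟨hL1, hL2, hL3⟩ := L_facts hH1 hcaseN
  have hL1' : 1 ≤ L := hL1
  have hLpos : (0:ℝ) < L := by exact_mod_cast hL1'
  have hLle : L ≤ 2 ^ n := Nat.div_le_self _ _
  -- the weights
  let w : ℕ × ℕ → ℝ := fun p => (lowA p.1 p.2 : ℝ) - lowB p.1 p.2
  have hfej : ∀ p ∈ C', (1:ℝ) / 4 ≤ Fej L (w p * γ) := by
    intro p hp
    have h1 := (Finset.mem_filter.1 hp).2.2.2.2.2.2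
    refine Fej_ge L hL1 _ (8 * (H:ℝ) / N) ?_ h1
    have e : 6 * (L:ℝ) * (8 * (H:ℝ) / N) = ((L:ℝ) * (48 * (H:ℝ))) / N := by ring
    rw [e, div_le_one hNpos]
    exact hL2
  have hcount : (C'.card : ℝ) ≤ 4 * ∑ p ∈ C, Fej L (w p * γ) := by
    have h1 : (C'.card : ℝ) * (1 / 4) ≤ ∑ p ∈ C', Fej L (w p * γ) := by
      have := Finset.card_nsmul_le_sum C' (fun p => Fej L (w p * γ)) (1 / 4) hfej
      simpa [nsmul_eq_mul] using this
    have h2 : ∑ p ∈ C', Fej L (w p * γ) ≤ ∑ p ∈ C, Fej L (w p * γ) :=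
      Finset.sum_le_sum_of_subset_of_nonneg hsub fun _ _ _ => Fej_nonneg _ _
    linarith
  -- the twisted sums
  have hTT : ∀ j ∈ Ico 1 L, TT C w ((j:ℝ) * γ) =
      ∑ d ∈ Icc 1 (2 * min M₁ M₂), ((ArithmeticFunction.moebius d : ℤ) : ℂ) *
        BBc F (Nn M₂ d) (Nn M₁ d) (((d : ℕ):ℝ) * ((j:ℝ) * γ)) := by
    intro j _
    rw [← cell_moebius F hF M₁ M₂ hM₁1 hM₂1 ((j:ℝ) * γ)]
    unfold TT
    rw [hC, Finset.sum_filter, Finset.sum_product]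
  have hS : ∑ j ∈ Ico 1 L, ‖TT C w ((j:ℝ) * γ)‖ ≤ (L:ℝ) * F.card * Real.sqrt ((M₁:ℝ) * M₂) * E := by
    rw [Finset.sum_congr rfl fun j hj => by rw [hTT j hj]]
    refine sum_T_le hF hM₁1 hM₂1 hE0 ?_ ?_
    · exact hn0 n hn F hF hK1 hKn hKN M₁ L hM₁ (by
        have := le_max_left M₁ M₂
        omega) hL1 hLle
    · exact hn0 n hn F hF hK1 hKn hKN M₂ L hM₂ (by
        have := le_max_right M₁ M₂
        omega) hL1 hLle
  have hfejsum := sum_fej_le C w γ L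
  have hpos0 : 0 ≤ (F.card : ℝ) * Real.sqrt ((M₁:ℝ) * M₂) * E := by positivity
  exact cell_assemble hNpos hHpos hLpos hL3 (by positivity) hfejsum hcount hS hpos0

end

end Vale.Agent.Lib.P028L
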