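import Vale.Agent.Lib.P028K.KL

/-! P028L, definitions. See notes/P028L_blueprint.md. The parameters of `P028K` are reused with `ε` and `ν₀` depending on `Y`. -/

open Finset

namespace Vale.Agent.Lib.P028L

open Vale.Agent.Lib.P028
open Vale.Agent.Lib.P028T
open Vale.Agent.Lib.P028K

noncomputable section

/-- `g = log log Y`. -/
def gL (Y : ℕ) : ℝ := Real.log (Real.log Y)

/-- The constant in the moment range. -/
def AL : ℝ := 400000

/-- The exponent `ε` of `P028K`, now depending on `Y`: `(log Y)^ε = AL * g^3`. -/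
def eL (Y : ℕ) : ℝ := Real.log (AL * gL Y ^ 3) / gL Y

/-- The exponent `ν₀` of `P028K`, now depending on `Y`. -/
def nL (Y : ℕ) : ℝ := 1 / gL Y

/-- The level of the bound of the average over twists. -/
def XL (n : ℕ) : ℝ := Real.log ((n:ℝ) + 2) ^ 4 / 4

/-- The excess at level `n`. -/
def GEL (n : ℕ) : ℝ := Real.exp (2 * XL n)

end

end Vale.Agent.Lib.P028L
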