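import Vale.Agent.Lib.P028L.KLmL

/-! Part KLL: the twisted moment bound in the range `k ≤ log Y / (AL g^3)`. -/

open Finset Filter

namespace Vale.Agent.Lib.P028L

open Vale.Agent.Lib.P028
open Vale.Agent.Lib.P028T
open Vale.Agent.Lib.P028K

noncomputable section

/-- Numerical facts on the parameters, uniform form. -/
theorem par_facts_u (ε ν₀ : ℝ) (hν : 0 < ν₀) (Y : ℕ) (hL : 100 ≤ Real.log Y) (hLe : 100 ≤ (Real.log Y) ^ ε)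
    (hLe1 : 20 ≤ (Real.log Y) ^ (1 - ε)) :
    let p := par ε ν₀ Y;
      100 * p.lam ≤ p.P ∧ p.lam ^ 8 ≤ p.Q0 ∧ p.P ≤ p.Q0 ∧ 1000 ≤ p.lam ∧ 2 ≤ p.T ∧
      (p.T:ℝ) ≤ 2 * (Y:ℝ) ^ ν₀ ∧ p.lam ≤ Real.log Y ∧
      (p.lam ^ (p.j2 : ℕ) ≤ (p.T:ℝ) ^ ((1:ℝ) / 16)) ∧
      Real.log (p.lam) * ((p.j2 : ℝ) + 1) * 16 ≥ Real.log p.T := by
  intro p
  have hYpos : 0 < (Y:ℝ) := by
    rcases Nat.eq_zero_or_pos Y with h | h
    · subst h; simp at hL; linarith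
    · exact_mod_cast h
  have hY1 : (1:ℝ) < Y := by
    by_contra hc
    have hc' : (Y:ℝ) ≤ 1 := not_lt.1 hc
    have := Real.log_nonpos hYpos.le hc'
    linarith
  set L := Real.log (Y:ℝ) with hLdef
  have hLpos : 0 < L := by linarith
  have hKb : (p.Kb:ℝ) = (⌈L ^ (1 - ε)⌉₊ : ℝ) := by rw [p.hKb]
  have hK1 : L ^ (1 - ε) ≤ (p.Kb:ℝ) := by rw [hKb]; exact Nat.le_ceil _
  have hK2 : (p.Kb:ℝ) < L ^ (1 - ε) + 1 := by
    rw [hKb]; exact Nat.ceil_lt_add_one (by positivity)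
  have hlam : p.lam = 50 * (p.Kb:ℝ) := by rw [p.hlam]
  have hl1000 : 1000 ≤ p.lam := by rw [hlam]; linarith
  have hP : p.lam ^ 2 ≤ (p.P:ℝ) := by rw [p.hP]; exact Nat.le_ceil _
  have hQ : p.lam ^ 16 ≤ (p.Q0:ℝ) := by rw [p.hQ0]; exact Nat.le_ceil _
  have hl1 : 1 ≤ p.lam := by linarith
  have hpow8 : p.lam ^ 8 ≤ p.lam ^ 16 := pow_le_pow_right₀ hl1 (by norm_num)
  have hpow2 : p.lam ^ 2 ≤ p.lam ^ 16 := pow_le_pow_right₀ hl1 (by norm_num)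
  have hx1 : (1:ℝ) < (Y:ℝ) ^ ν₀ := Real.one_lt_rpow hY1 hν
  have hT2 : 2 ≤ p.T := by
    rw [p.hT]
    have : 1 < ⌈(Y:ℝ) ^ ν₀⌉₊ := Nat.lt_ceil.2 (by exact_mod_cast hx1)
    omega
  have hTle : (p.T:ℝ) ≤ 2 * (Y:ℝ) ^ ν₀ := by
    rw [p.hT]
    have := Nat.ceil_lt_add_one (a := (Y:ℝ) ^ ν₀) (by positivity)
    linarith
  have hsplit : L ^ (1 - ε) * L ^ ε = L := by
    rw [← Real.rpow_add hLpos]; simp
  have hbig : 100 * L ^ (1 - ε) ≤ L := by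
    have hnn : 0 ≤ L ^ (1 - ε) := by positivity
    nlinarith
  have hlamL : p.lam ≤ L := by rw [hlam]; linarith
  have hloglam : 0 < Real.log p.lam := Real.log_pos (by linarith)
  have hTpos : (0:ℝ) < p.T := by exact_mod_cast (by omega : 0 < p.T)
  have hlogT : 0 ≤ Real.log (p.T:ℝ) := by
    apply Real.log_nonneg
    exact_mod_cast (by omega : 1 ≤ p.T)
  have hquot : 0 ≤ Real.log (p.T:ℝ) / (16 * Real.log p.lam) := by positivity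
  have hj1 : (p.j2:ℝ) ≤ Real.log (p.T:ℝ) / (16 * Real.log p.lam) := by
    rw [p.hj2]; exact Nat.floor_le hquot
  have hj2 : Real.log (p.T:ℝ) / (16 * Real.log p.lam) < (p.j2:ℝ) + 1 := by
    rw [p.hj2]; exact Nat.lt_floor_add_one _
  have hd : 0 < 16 * Real.log p.lam := by positivity
  refine ⟨?_, ?_, ?_, hl1000, hT2, hTle, hlamL, ?_, ?_⟩
  · nlinarith
  · linarith
  · rw [p.hP, p.hQ0]; exact Nat.ceil_mono hpow2
  · have hlampow : 0 < p.lam ^ p.j2 := by positivity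
    have hTr : 0 < (p.T:ℝ) ^ ((1:ℝ) / 16) := by positivity
    rw [← Real.log_le_log_iff hlampow hTr, Real.log_pow, Real.log_rpow hTpos]
    have := (le_div_iff₀ hd).1 hj1
    nlinarith
  · have := (div_lt_iff₀ hd).1 hj2
    nlinarith

/-- More eventual facts. -/
lemma ev_more : ∀ᶠ L : ℝ in atTop, 20 * (AL * Real.log L ^ 3) ≤ L ∧ (100:ℝ) ≤ L ∧ 1 ≤ Real.log L := by
  have h1 : ∀ᶠ L : ℝ in atTop, Real.log L ^ 3 ≤ (1 / (20 * AL)) * L := by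
    have := (Real.isLittleO_pow_log_id_atTop (n := 3)).bound (c := 1 / (20 * AL)) (by unfold AL; norm_num)
    filter_upwards [this, eventually_ge_atTop 1] with L hL hL1
    simp only [id] at hL
    have h0 : 0 ≤ Real.log L := Real.log_nonneg hL1
    rwa [Real.norm_of_nonneg (by positivity), Real.norm_of_nonneg (by linarith)] at hL
  filter_upwards [h1, eventually_ge_atTop 100, Real.tendsto_log_atTop.eventually_ge_atTop 1] with L h2 h3 h4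
  refine ⟨?_, h3, h4⟩
  have hA : 0 < AL := by unfold AL; norm_num
  calc 20 * (AL * Real.log L ^ 3) ≤ 20 * (AL * ((1 / (20 * AL)) * L)) := by gcongr
    _ = L := by field_simp

/-- Joining the two parts. -/
lemma KL_join {B M : ℕ} [NeZero M] (k : ℕ) (hk : 1 ≤ k) (β : ℝ) (Y Y' : ℕ) (MS : Finset ℕ) (hsub : MS ⊆ Ico Y Y')
    (x : ℝ) (hx : 2 ≤ x)
    (hsp : mm k (SS (B := B) (M := M) β (Ico Y Y' \ MS)) ^ 2 ≤ Y)
    (hm : mm k (SS (B := B) (M := M) β MS) ^ 2 ≤ Y * Real.exp (x / 8)) :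
    nr k (fun ω : Om B M => ‖SS β (Ico Y Y') ω‖ ^ 2) ≤ Y * Real.exp x := by
  have hsplit : (SS (B := B) (M := M) β (Ico Y Y'))
      = fun ω => SS (B := B) (M := M) β (Ico Y Y' \ MS) ω + SS (B := B) (M := M) β MS ω := by
    funext ω
    unfold SS
    exact (Finset.sum_sdiff hsub).symm
  have hadd : mm k (SS (B := B) (M := M) β (Ico Y Y'))
      ≤ mm k (SS (B := B) (M := M) β (Ico Y Y' \ MS)) + mm k (SS (B := B) (M := M) β MS) := by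
    rw [hsplit]
    exact mm_add k hk _ _
  have hnr : nr k (fun ω : Om B M => ‖SS β (Ico Y Y') ω‖ ^ 2)
      = mm k (SS (B := B) (M := M) β (Ico Y Y')) ^ 2 := (mm_sq k hk _).symm
  rw [hnr]
  obtain ⟨a, ha⟩ : ∃ a, a = mm k (SS (B := B) (M := M) β (Ico Y Y' \ MS)) := ⟨_, rfl⟩
  obtain ⟨b, hb⟩ : ∃ b, b = mm k (SS (B := B) (M := M) β MS) := ⟨_, rfl⟩
  rw [← ha, ← hb] at hadd
  rw [← ha] at hsp
  rw [← hb] at hm
  have ha0 : 0 ≤ a := by rw [ha]; exact mm_nonneg _ _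
  have hb0 : 0 ≤ b := by rw [hb]; exact mm_nonneg _ _
  have hc0 : 0 ≤ mm k (SS (B := B) (M := M) β (Ico Y Y')) := mm_nonneg _ _
  have hsq : mm k (SS (B := B) (M := M) β (Ico Y Y')) ^ 2 ≤ 2 * (a ^ 2 + b ^ 2) := by
    have h1 : mm k (SS (B := B) (M := M) β (Ico Y Y')) ^ 2 ≤ (a + b) ^ 2 :=
      pow_le_pow_left₀ hc0 hadd 2
    nlinarith [sq_nonneg (a - b)]
  have hE1 : (1:ℝ) ≤ Real.exp (x / 8) := Real.one_le_exp (by positivity)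
  have hE : 4 * Real.exp (x / 8) ≤ Real.exp x := by
    have h4 : (4:ℝ) ≤ Real.exp (x * (7 / 8)) := by
      have h2 : Real.exp (7 / 4 : ℝ) ≤ Real.exp (x * (7 / 8)) :=
        Real.exp_le_exp.2 (by nlinarith)
      have h3 : (4:ℝ) ≤ Real.exp (7 / 4) := by
        have h5 : Real.exp (7 / 4 : ℝ) = Real.exp (7 / 16) ^ 4 := by
          rw [← Real.exp_nat_mul]; norm_num
        have h6 : (23 / 16 : ℝ) ≤ Real.exp (7 / 16) := by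
          have := Real.add_one_le_exp (7 / 16 : ℝ)
          linarith
        rw [h5]
        calc (4:ℝ) ≤ (23 / 16 : ℝ) ^ 4 := by norm_num
          _ ≤ Real.exp (7 / 16) ^ 4 := pow_le_pow_left₀ (by norm_num) h6 4
      linarith
    have : Real.exp x = Real.exp (x * (7 / 8)) * Real.exp (x / 8) := by
      rw [← Real.exp_add]
      congr 1
      ring
    rw [this]
    exact mul_le_mul_of_nonneg_right h4 (Real.exp_pos _).le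
  have hYnn : (0:ℝ) ≤ (Y:ℝ) := Nat.cast_nonneg _
  calc mm k (SS (B := B) (M := M) β (Ico Y Y')) ^ 2 ≤ 2 * (a ^ 2 + b ^ 2) := hsq
    _ ≤ 2 * ((Y:ℝ) + (Y:ℝ) * Real.exp (x / 8)) := by
        have : a ^ 2 + b ^ 2 ≤ (Y:ℝ) + (Y:ℝ) * Real.exp (x / 8) := add_le_add hsp hm
        linarith
    _ ≤ (Y:ℝ) * (4 * Real.exp (x / 8)) := by nlinarith
    _ ≤ (Y:ℝ) * Real.exp x := mul_le_mul_of_nonneg_left hE hYnn

/-- The real facts on the parameters. -/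
lemma params_facts (L g : ℝ) (hgdef : g = Real.log L) (hLpos : 0 < L) (hg1 : 1 ≤ g) (hm20 : 20 * (AL * g ^ 3) ≤ L)
    (hg26 : (Real.exp 26) ^ 2 ≤ g) (ε ν₀ : ℝ) (hεform : ε = Real.log (AL * g ^ 3) / g) (hν₀form : ν₀ = 1 / g) :
    0 < ν₀ ∧ L ^ (1 - ε) = L / (AL * g ^ 3) ∧ 0 < ε ∧ ε < 1 ∧ 20 ≤ L ^ (1 - ε) ∧ 100 ≤ L ^ ε ∧ ν₀ ≤ 1 / 64 ∧
    (∃ δ : ℝ, 0 < δ ∧ g ≤ δ * L ^ (ε / 2) ∧ δ ^ 2 * (7805 * 48 / ν₀) ≤ 1) ∧ (2:ℝ) ≤ g ^ 2 := by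
  have hg0 : 0 < g := by linarith
  have hA : 0 < AL := by unfold AL; norm_num
  have hAg : 0 < AL * g ^ 3 := by positivity
  have hg3 : 1 ≤ g ^ 3 := one_le_pow₀ hg1
  have hAg1 : 1 < AL * g ^ 3 := by
    unfold AL
    nlinarith
  have hν₀0 : 0 < ν₀ := by
    rw [hν₀form]
    positivity
  have hLε : L ^ ε = AL * g ^ 3 := by
    rw [Real.rpow_def_of_pos hLpos, ← hgdef, hεform]
    have : g * (Real.log (AL * g ^ 3) / g) = Real.log (AL * g ^ 3) := by field_simp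
    rw [this, Real.exp_log hAg]
  have hL1ε : L ^ (1 - ε) = L / (AL * g ^ 3) := by
    rw [Real.rpow_sub hLpos, Real.rpow_one, hLε]
  have h27 : (27:ℝ) ≤ Real.exp 26 := by
    have := Real.add_one_le_exp (26:ℝ)
    linarith
  have hg64 : (64:ℝ) ≤ g := by nlinarith
  refine ⟨hν₀0, hL1ε, ?_, ?_, ?_, ?_, ?_, ?_, ?_⟩
  · rw [hεform]
    exact div_pos (Real.log_pos hAg1) hg0
  · rw [hεform, div_lt_one hg0]
    have h1 : AL * g ^ 3 < L := by linarith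
    calc Real.log (AL * g ^ 3) < Real.log L := Real.log_lt_log hAg h1
      _ = g := hgdef.symm
  · rw [hL1ε, le_div_iff₀ hAg]
    exact hm20
  · rw [hLε]
    unfold AL
    nlinarith
  · rw [hν₀form, div_le_div_iff₀ hg0 (by norm_num)]
    linarith
  · refine ⟨Real.sqrt (1 / (AL * g)), Real.sqrt_pos.2 (by positivity), ?_, ?_⟩
    · have hLε2 : L ^ (ε / 2) = Real.sqrt (AL * g ^ 3) := by
        rw [Real.sqrt_eq_rpow, ← hLε, ← Real.rpow_mul hLpos.le]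
        congr 1
        ring
      rw [hLε2, ← Real.sqrt_mul (by positivity)]
      have : 1 / (AL * g) * (AL * g ^ 3) = g ^ 2 := by field_simp
      rw [this, Real.sqrt_sq hg0.le]
    · rw [Real.sq_sqrt (by positivity), hν₀form]
      have : 1 / (AL * g) * (7805 * 48 / (1 / g)) = 7805 * 48 / AL := by field_simp
      rw [this]
      unfold AL
      norm_num
  · nlinarith

/-- The two parts at one `Y`. -/
lemma KL_one (ε ν₀ δ : ℝ) {C ν : ℝ} (hν : 0 < ν) (hν1 : ν ≤ 1 / 16) (hC0 : 0 < C)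
    (hC : ∀ (θ : ℝ) (N0 X0 U : ℕ) (η R : ℝ),
      1 ≤ X0 → 1 ≤ U → 0 < η → η ≤ 1 → 1 ≤ R → R ^ 3 ≤ N0 → (X0:ℝ) ≤ (N0:ℝ) ^ (2 / ν) →
      (∀ n : ℕ, 1 ≤ n → n ≤ N0 → η ≤ dn ((n:ℝ) * θ)) →
      (16 * R ^ 2 / η ^ 2 ≤ X0 ∨ 2 * Real.sqrt R / η ≤ U) →
      ∑ x ∈ Ico X0 (8 * X0), ∑ x' ∈ (Ico X0 (8 * X0)).filter (· ≠ x),
          (Nat.gcd x x' : ℝ) * hh θ U (max x x' - min x x')
        ≤ C * (X0:ℝ) ^ 2 * (U:ℝ) ^ 2 * (1 + Real.log (X0:ℝ)) * (1 / (U:ℝ) + 1 / R))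
    (hε0 : 0 < ε) (hε1 : ε < 1) (hν₀0 : 0 < ν₀) (hν₀64 : ν₀ ≤ 1 / 64) (Y Y' : ℕ) (hν₀form' : ν₀ = 1 / Real.log (Real.log Y))
    (hY3 : 3 ≤ Y) (hY' : Y' ≤ 2 * Y)
    (hev : (Real.log (Real.log Y) ≤ (1 / 480) * (Real.log Y) ^ (1 / 2 : ℝ) ∧ 5 + 4 * Real.log (2 * Real.log Y + 2) ≤ 5 * Real.log (Real.log Y) ∧ (6:ℝ) ≤ Real.log (Real.log Y)) ∧
    (∀ lam : ℝ, 1 ≤ lam → lam ≤ Real.log Y → 12 * lam ^ 2 * Real.sqrt (3 * C * (1 + Real.log Y)) ≤ Real.exp ((1 / (Real.log (Real.log Y))) / 4 * Real.log Y)) ∧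
    (16:ℝ) ≤ Real.exp ((ν / 2) * Real.log Y) ∧ (1088:ℝ) ≤ Real.exp ((3 / 16) * Real.log Y) ∧
    (8:ℝ) ≤ Real.exp ((3 * ν / 8) * Real.log Y) ∧ (2:ℝ) ≤ Real.exp ((1 / (Real.log (Real.log Y))) / 4 * Real.log Y) ∧ (2:ℝ) ≤ Real.log Y ∧
    (Real.exp 26) ^ 2 ≤ Real.log (Real.log Y) ∧ 8 / ν ≤ Real.log (Real.log Y) ∧ (200:ℝ) ≤ Real.log Y)
    (hL100 : 100 ≤ Real.log Y) (hLe : 100 ≤ (Real.log Y) ^ ε) (hLe1 : 20 ≤ (Real.log Y) ^ (1 - ε))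
    (hδ0 : 0 < δ) (hδ : Real.log (Real.log Y) ≤ δ * (Real.log Y) ^ (ε / 2)) (hδK : δ ^ 2 * (7805 * 48 / ν₀) ≤ 1)
    (hg2 : (2:ℝ) ≤ Real.log (Real.log Y) ^ 2)
    (β : ℝ) (hMA : MA β ⌊(Y:ℝ) ^ ν⌋₊ ((Y:ℝ) ^ (-(1 / 4 : ℝ)))) (k : ℕ) (hk : 1 ≤ k)
    (hkL : (k:ℝ) ≤ (Real.log Y) ^ (1 - ε)) (B M : ℕ) [NeZero M] (hM : 2 ≤ M) (hfits : ∀ a ∈ Ico 1 (Y' + 1), Fits B M a) :
    nr k (fun ω : Om B M => ‖SS β (Ico Y Y') ω‖ ^ 2) ≤ Y * Real.exp (Real.log (Real.log Y) ^ 2) := by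
  obtain ⟨hf100, hfQ8, hfPQ, hf1000, hfT2, hfTup, hflamL, hflj, hfj⟩ := par_facts_u ε ν₀ hν₀0 Y hL100 hLe hLe1
  have hfit' : ∀ a ∈ Ico Y Y', Fits B M a := by
    intro a ha
    apply hfits
    rw [Finset.mem_Ico] at ha ⊢
    omega
  have hL200 : 200 ≤ Real.log Y := hev.2.2.2.2.2.2.2.2.2
  have hsp := KL_sp_U ε ν₀ δ hε0 hε1 hν₀0 hν₀64 Y Y' (by omega) hY' β k hk hkL B M hfit'
    hf100 hfQ8 hfPQ hf1000 hfT2 hfTup hflamL hfj hL200 hδ0 hδ hδK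
  have hm := KL_m_U (C := C) (ν := ν) hν hν1 hC0 hC ε ν₀ Y Y' hν₀form' hY3 hY' hev hf1000 hfPQ hfT2 hfTup hflamL hflj
    β hMA k hk hkL B M hM hfits
  exact KL_join k hk β Y Y' _ (Finset.filter_subset _ _) _ hg2 hsp hm

/-- The twisted moment bound, `g = log log Y`. -/
theorem KL_L (ν : ℝ) (hν : 0 < ν) (hν1 : ν ≤ 1 / 16) :
    ∃ Y0 : ℕ, ∀ Y Y' : ℕ, Y0 ≤ Y → Y' ≤ 2 * Y → ∀ β : ℝ,
      MA β ⌊(Y:ℝ) ^ ν⌋₊ ((Y:ℝ) ^ (-(1 / 4 : ℝ))) → ∀ k : ℕ, 1 ≤ k → (k:ℝ) ≤ Real.log Y / (AL * gL Y ^ 3) →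
      ∀ (B M : ℕ) [NeZero M], 2 ≤ M → (∀ a ∈ Ico 1 (Y' + 1), Fits B M a) →
        nr k (fun ω : Om B M => ‖SS β (Ico Y Y') ω‖ ^ 2) ≤ Y * Real.exp (gL Y ^ 2) := by
  have hD1 : (1:ℝ) ≤ 2 / ν := by
    rw [le_div_iff₀ hν]
    linarith
  obtain ⟨C, hC0, hC⟩ := p1_bound (2 / ν) hD1
  obtain ⟨L0, hL0⟩ := eventually_atTop.1 ((ev_all C ν hC0 hν).and ev_more)
  refine ⟨max ⌈Real.exp L0⌉₊ 3, ?_⟩
  intro Y Y' hY hY' β hMA k hk hkL B M _ hM hfits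
  have hYexp : ⌈Real.exp L0⌉₊ ≤ Y := le_trans (le_max_left _ _) hY
  have hY3 : 3 ≤ Y := le_trans (le_max_right _ _) hY
  have hYpos : (0:ℝ) < Y := by
    have : (3:ℝ) ≤ Y := by exact_mod_cast hY3
    linarith
  have hLge : L0 ≤ Real.log Y := by
    rw [Real.le_log_iff_exp_le hYpos]
    exact (Nat.le_ceil _).trans (by exact_mod_cast hYexp)
  obtain ⟨hev, hm20, hL100, hg1⟩ := hL0 _ hLge
  have hg26 : (Real.exp 26) ^ 2 ≤ Real.log (Real.log Y) := hev.2.2.2.2.2.2.2.1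
  have hLpos : 0 < Real.log Y := by linarith
  obtain ⟨hν₀0, hL1ε, hε0, hε1, h20, h100, hν₀64, ⟨δ, hδ0, hδ, hδK⟩, hg2⟩ :=
    params_facts (Real.log Y) (Real.log (Real.log Y)) rfl hLpos hg1 hm20 hg26 (eL Y) (nL Y) rfl rfl
  have hgg : gL Y = Real.log (Real.log Y) := rfl
  rw [hgg] at hkL ⊢
  exact KL_one (eL Y) (nL Y) δ hν hν1 hC0 hC hε0 hε1 hν₀0 hν₀64 Y Y' rfl hY3 hY' hev hL100 h100 h20 hδ0 hδ hδK hg2
    β hMA k hk (by rw [hL1ε]; exact hkL) B M hM hfits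

end

end Vale.Agent.Lib.P028L
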