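import Vale.Agent.Lib.P028L.KLL
import Vale.Agent.Lib.P028K.MLDefs

/-! Part MLgoodL: one good twist. Copy of `P028K/MLgood.lean`: `k = ⌊L / (AL g^3)⌋`, `L = log Y`, `g = log L`. -/

open Finset

namespace Vale.Agent.Lib.P028L

open Vale.Agent.Lib.P028
open Vale.Agent.Lib.P028T
open Vale.Agent.Lib.P028G
open Vale.Agent.Lib.P028K

noncomputable section

private lemma GG_le (n : ℕ) : GG n ≤ Real.exp (100 * ((n:ℝ) + 1)) := by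
  unfold GG
  apply Real.exp_le_exp.mpr
  obtain ⟨-, -, -, h, -⟩ := AA_facts n
  linarith

/-- Logarithmic size of `F`. -/
private lemma log_card_le (n : ℕ) (K : ℕ) (hK1 : 1 ≤ K) (hK : (K : ℝ) ≤ 2 * 2 ^ n * GG n) :
    Real.log K ≤ 102 * ((n:ℝ) + 1) := by
  have hK0 : (0:ℝ) < K := by exact_mod_cast hK1
  have hn : (0:ℝ) ≤ n := Nat.cast_nonneg n
  have hl2 : Real.log 2 ≤ 1 := by
    have := Real.log_two_lt_d9
    linarith
  have h2pos : (0:ℝ) < 2 := by norm_num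
  have hb : (K : ℝ) ≤ Real.exp (102 * ((n:ℝ) + 1)) := by
    have h2 : (2:ℝ) ≤ Real.exp 1 := by
      have := Real.add_one_le_exp (1:ℝ)
      linarith
    have hp : (2:ℝ) ^ n ≤ Real.exp (n:ℝ) := by
      calc (2:ℝ) ^ n ≤ (Real.exp 1) ^ n := pow_le_pow_left₀ (by norm_num) h2 n
        _ = Real.exp (n:ℝ) := by rw [← Real.exp_nat_mul]; simp
    calc (K : ℝ) ≤ 2 * 2 ^ n * GG n := hK
      _ ≤ Real.exp 1 * Real.exp (n:ℝ) * Real.exp (100 * ((n:ℝ) + 1)) := by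
          have := GG_le n
          have hG : 0 ≤ GG n := (Real.exp_pos _).le
          gcongr
      _ = Real.exp (1 + (n:ℝ) + 100 * ((n:ℝ) + 1)) := by
          rw [Real.exp_add, Real.exp_add]
      _ ≤ Real.exp (102 * ((n:ℝ) + 1)) := by
          apply Real.exp_le_exp.mpr
          linarith
  calc Real.log K ≤ Real.log (Real.exp (102 * ((n:ℝ) + 1))) := Real.log_le_log hK0 hb
    _ = _ := Real.log_exp _

private lemma Yd_lower (Mm d : ℕ) (hd : 1 ≤ d) : (Mm:ℝ) / d ≤ (Yd Mm d : ℕ) := by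
  have hd0 : (0:ℝ) < d := by exact_mod_cast hd
  rw [div_le_iff₀ hd0]
  have h : Mm ≤ Yd Mm d * d := by
    unfold Yd
    have h1 := Nat.div_add_mod (Mm + d - 1) d
    have h2 := Nat.mod_lt (Mm + d - 1) (show 0 < d by omega)
    have h3 : d * ((Mm + d - 1) / d) = (Mm + d - 1) / d * d := Nat.mul_comm _ _
    omega
  exact_mod_cast h

private lemma Yd_upper (Mm d : ℕ) (hd : 1 ≤ d) : ((Yd Mm d : ℕ):ℝ) ≤ (Mm:ℝ) / d + 1 := by
  have hd0 : (0:ℝ) < d := by exact_mod_cast hd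
  have h : Yd Mm d * d ≤ Mm + d := by
    unfold Yd
    have h1 := Nat.div_mul_le_self (Mm + d - 1) d
    omega
  have h' : ((Yd Mm d : ℕ):ℝ) * d ≤ (Mm:ℝ) + d := by exact_mod_cast h
  have : (Mm:ℝ) / d + 1 = ((Mm:ℝ) + d) / d := by field_simp
  rw [this, le_div_iff₀ hd0]
  exact h'

/-- `AL (log L)^3 ≤ L` for large `L`. -/
private lemma exists_L0 : ∃ L0 : ℝ, Real.exp 1 ≤ L0 ∧ ∀ L : ℝ, L0 ≤ L → AL * Real.log L ^ 3 ≤ L := by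
  have hAL : (0:ℝ) < AL := by
    unfold AL
    norm_num
  have h := (Real.isLittleO_pow_log_id_atTop (n := 3)).def (c := 1 / AL) (by positivity)
  obtain ⟨L1, hL1⟩ := Filter.eventually_atTop.1 h
  refine ⟨max L1 (max (Real.exp 1) 1), le_trans (le_max_left _ _) (le_max_right _ _), ?_⟩
  intro L hL
  have hL1' : L1 ≤ L := le_trans (le_max_left _ _) hL
  have hL2 : (1:ℝ) ≤ L := le_trans (le_trans (le_max_right _ _) (le_max_right _ _)) hL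
  have h1 := hL1 L hL1'
  simp only [id, Real.norm_eq_abs] at h1
  have h2 : 0 ≤ Real.log L := Real.log_nonneg hL2
  rw [abs_of_nonneg (pow_nonneg h2 3), abs_of_pos (by linarith)] at h1
  calc AL * Real.log L ^ 3 ≤ AL * (1 / AL * L) := by gcongr
    _ = L := by field_simp

/-- Numerical parameters. -/
private lemma good_params (c₄ : ℝ) (hc₄ : 0 < c₄) (Y0 : ℕ) (L0 : ℝ) (hL01 : 1 ≤ L0) (n : ℕ)
    (hn0 : max ((Y0:ℝ) + 1) L0 / (c₄ * Real.log 2) + 1 ≤ n) (Y : ℕ)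
    (hYl : ((2:ℝ) ^ n) ^ c₄ ≤ (Y:ℝ)) (hYu : (Y:ℝ) ≤ 2 ^ (n + 1)) :
    Y0 ≤ Y ∧ 1 ≤ Y ∧ c₄ * Real.log 2 / 2 * ((n:ℝ) + 1) ≤ Real.log Y ∧ L0 ≤ Real.log Y ∧
      Real.log Y ≤ (n:ℝ) + 1 ∧ 1 ≤ (n:ℝ) := by
  have hlog2 : 0 < Real.log 2 := Real.log_pos (by norm_num)
  have hlog2' : Real.log 2 ≤ 1 := by
    have := Real.log_two_lt_d9
    linarith
  have hdiv0 : 0 ≤ max ((Y0:ℝ) + 1) L0 / (c₄ * Real.log 2) := by
    have : 0 ≤ max ((Y0:ℝ) + 1) L0 := le_trans (by linarith) (le_max_right _ _)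
    positivity
  have hn1 : (1:ℝ) ≤ n := by linarith
  have hcn : max ((Y0:ℝ) + 1) L0 ≤ c₄ * n * Real.log 2 := by
    have hcpos : 0 < c₄ * Real.log 2 := by positivity
    have h : max ((Y0:ℝ) + 1) L0 / (c₄ * Real.log 2) ≤ n := by linarith
    rw [div_le_iff₀ hcpos] at h
    linarith
  have hcnL : L0 ≤ c₄ * n * Real.log 2 := le_trans (le_max_right _ _) hcn
  have hcn1 : 1 ≤ c₄ * n * Real.log 2 := le_trans hL01 hcnL
  have hcnY : (Y0:ℝ) + 1 ≤ c₄ * n * Real.log 2 := le_trans (le_max_left _ _) hcn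
  have h2n : ((2:ℝ) ^ n) ^ c₄ = Real.exp (c₄ * n * Real.log 2) := by
    rw [Real.rpow_def_of_pos (by positivity), Real.log_pow]
    congr 1
    ring
  have hYl' : Real.exp (c₄ * n * Real.log 2) ≤ (Y:ℝ) := by
    rw [← h2n]
    exact hYl
  have hexp_ge : c₄ * n * Real.log 2 + 1 ≤ Real.exp (c₄ * n * Real.log 2) := Real.add_one_le_exp _
  have hYbig : (Y0:ℝ) + 2 ≤ Y := by linarith
  have hY0Y : Y0 ≤ Y := by
    have : (Y0:ℝ) ≤ Y := by linarith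
    exact_mod_cast this
  have hYpos : (0:ℝ) < Y := by
    have : (0:ℝ) ≤ Y0 := Nat.cast_nonneg _
    linarith
  have hY1 : 1 ≤ Y := by
    have : (0:ℝ) < Y := hYpos
    have h : 0 < Y := by exact_mod_cast this
    omega
  have hlogl : c₄ * n * Real.log 2 ≤ Real.log Y := by
    rw [Real.le_log_iff_exp_le hYpos]
    exact hYl'
  have hlogYL0 : L0 ≤ Real.log Y := le_trans hcnL hlogl
  have hlogu : Real.log Y ≤ (n:ℝ) + 1 := by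
    calc Real.log Y ≤ Real.log ((2:ℝ) ^ (n + 1)) := Real.log_le_log hYpos hYu
      _ = ((n + 1 : ℕ):ℝ) * Real.log 2 := Real.log_pow _ _
      _ ≤ ((n + 1 : ℕ):ℝ) * 1 := by gcongr
      _ = (n:ℝ) + 1 := by push_cast; ring
  have hc'n : c₄ * Real.log 2 / 2 * ((n:ℝ) + 1) ≤ Real.log Y := by
    have hcpos : 0 < c₄ * Real.log 2 := by positivity
    have h1 : ((n:ℝ) + 1) ≤ 2 * n := by linarith
    have h3 := mul_le_mul_of_nonneg_left h1 hcpos.le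
    have h4 : c₄ * Real.log 2 / 2 * ((n:ℝ) + 1) = c₄ * Real.log 2 * ((n:ℝ) + 1) / 2 := by ring
    have h5 : c₄ * Real.log 2 * (2 * (n:ℝ)) = 2 * (c₄ * n * Real.log 2) := by ring
    rw [h4]
    linarith
  exact ⟨hY0Y, hY1, hc'n, hlogYL0, hlogu, hn1⟩

/-- The moment: `k = ⌊L / (AL g^3)⌋`. -/
private lemma good_floor (L g : ℝ) (hg : 0 < g) (hL : AL * g ^ 3 ≤ L) :
    ∃ k : ℕ, 1 ≤ k ∧ (k:ℝ) ≤ L / (AL * g ^ 3) ∧ L / (AL * g ^ 3) / 2 ≤ k := by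
  have hAL : (0:ℝ) < AL := by
    unfold AL
    norm_num
  have hALg : 0 < AL * g ^ 3 := by positivity
  obtain ⟨x, hx⟩ : ∃ x : ℝ, x = L / (AL * g ^ 3) := ⟨_, rfl⟩
  have hx1 : 1 ≤ x := by
    rw [hx, le_div_iff₀ hALg, one_mul]
    exact hL
  rw [← hx]
  have hk1 : 1 ≤ ⌊x⌋₊ := Nat.le_floor (by simpa using hx1)
  refine ⟨⌊x⌋₊, hk1, Nat.floor_le (by linarith), ?_⟩
  have h1 : x < ((⌊x⌋₊ : ℕ):ℝ) + 1 := Nat.lt_floor_add_one x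
  have h2 : (1:ℝ) ≤ ((⌊x⌋₊ : ℕ):ℝ) := by exact_mod_cast hk1
  linarith

/-- `log |F| / k ≤ C₁ g³`. -/
private lemma good_ratio (logK n1 L g c' k : ℝ) (hg : 0 < g) (hc' : 0 < c') (hk : 0 < k)
    (hlogK : logK ≤ 102 * n1) (hn1 : 0 ≤ n1) (hL : c' * n1 ≤ L)
    (hxk : L / (AL * g ^ 3) / 2 ≤ k) :
    logK / k ≤ 204 * AL / c' * g ^ 3 := by
  have hAL : (0:ℝ) < AL := by
    unfold AL
    norm_num
  have hALg : 0 < AL * g ^ 3 := by positivity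
  have hC1pos : 0 < 204 * AL / c' := by positivity
  rw [div_le_iff₀ hk]
  have hk' : c' * n1 / (AL * g ^ 3) / 2 ≤ k := by
    refine le_trans ?_ hxk
    gcongr
  have hC1k : 204 * AL / c' * g ^ 3 * (c' * n1 / (AL * g ^ 3) / 2) = 102 * n1 := by
    field_simp
    ring
  calc logK ≤ 102 * n1 := hlogK
    _ = 204 * AL / c' * g ^ 3 * (c' * n1 / (AL * g ^ 3) / 2) := hC1k.symm
    _ ≤ 204 * AL / c' * g ^ 3 * k := by gcongr

/-- The final assembly. -/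
private lemma good_assemble (K X nrm Y U g C1 l : ℝ) (k : ℕ) (hK : 0 < K) (hC1 : 0 < C1)
    (hg1 : 1 ≤ g) (hgl : g ≤ l) (hY0 : 0 ≤ Y)
    (hratio : Real.log K / k ≤ C1 * g ^ 3)
    (hMom : X ≤ K ^ (1 + (1:ℝ) / k) * nrm) (hKL : nrm ≤ Y * Real.exp (g ^ 2)) (hYU : Y ≤ U) :
    X ≤ K * U * Real.exp ((C1 + 1) * l ^ 3) := by
  have hFk : K ^ ((1:ℝ) / k) ≤ Real.exp (C1 * g ^ 3) := by
    rw [Real.rpow_def_of_pos hK]
    apply Real.exp_le_exp.mpr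
    calc Real.log K * ((1:ℝ) / k) = Real.log K / k := by ring
      _ ≤ _ := hratio
  have hFsplit : K ^ (1 + (1:ℝ) / k) = K * K ^ ((1:ℝ) / k) := by
    rw [Real.rpow_add hK, Real.rpow_one]
  have hg23 : g ^ 2 ≤ g ^ 3 := pow_le_pow_right₀ hg1 (by norm_num)
  have hgn3 : g ^ 3 ≤ l ^ 3 := pow_le_pow_left₀ (by linarith) hgl 3
  have hexp2 : Real.exp (C1 * g ^ 3) * Real.exp (g ^ 2) ≤ Real.exp ((C1 + 1) * l ^ 3) := by
    rw [← Real.exp_add]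
    apply Real.exp_le_exp.mpr
    have : C1 * g ^ 3 ≤ C1 * l ^ 3 := by gcongr
    linarith
  have hU0 : 0 ≤ U := le_trans hY0 hYU
  calc X ≤ K ^ (1 + (1:ℝ) / k) * nrm := hMom
    _ ≤ K ^ (1 + (1:ℝ) / k) * (Y * Real.exp (g ^ 2)) :=
        mul_le_mul_of_nonneg_left hKL (Real.rpow_nonneg hK.le _)
    _ = K * (Y * (K ^ ((1:ℝ) / k) * Real.exp (g ^ 2))) := by
        rw [hFsplit]; ring
    _ ≤ K * (U * (Real.exp (C1 * g ^ 3) * Real.exp (g ^ 2))) := by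
        gcongr
    _ ≤ K * (U * Real.exp ((C1 + 1) * l ^ 3)) := by
        gcongr
    _ = _ := by ring

/-- The twisted moment at `Nn Mm d`: glue of the torus, `KL_L` and `BB_moment`. -/
private lemma good_moment (Y0 : ℕ) (ν : ℝ)
    (hY0 : ∀ Y Y' : ℕ, Y0 ≤ Y → Y' ≤ 2 * Y → ∀ β : ℝ,
      MA β ⌊(Y:ℝ) ^ ν⌋₊ ((Y:ℝ) ^ (-(1 / 4 : ℝ))) → ∀ k : ℕ, 1 ≤ k → (k:ℝ) ≤ Real.log Y / (AL * gL Y ^ 3) →
      ∀ (B M : ℕ) [NeZero M], 2 ≤ M → (∀ a ∈ Ico 1 (Y' + 1), Fits B M a) →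
        nr k (fun ω : Om B M => ‖SS β (Ico Y Y') ω‖ ^ 2) ≤ Y * Real.exp (gL Y ^ 2))
    (F : Finset ℕ) (hFpos : ∀ q ∈ F, 1 ≤ q) (Y Y' : ℕ) (hY1 : 1 ≤ Y) (hY0Y : Y0 ≤ Y) (hY'le : Y' ≤ 2 * Y)
    (β : ℝ) (hMA : MA β ⌊(Y:ℝ) ^ ν⌋₊ ((Y:ℝ) ^ (-(1 / 4 : ℝ)))) (k : ℕ) (hk1 : 1 ≤ k)
    (hkx : (k:ℝ) ≤ Real.log Y / (AL * gL Y ^ 3)) :
    ∃ nrm : ℝ, (BBc F (Ico Y Y') (Ico Y Y') β).re ≤ (F.card : ℝ) ^ (1 + (1:ℝ) / k) * nrm ∧
      nrm ≤ Y * Real.exp (gL Y ^ 2) := by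
  obtain ⟨B, M, hM2, hFit⟩ := exists_torus (F ∪ {1}) (Ico 1 (Y' + 1))
    (by
      intro q hq
      rcases Finset.mem_union.mp hq with h | h
      · have := hFpos q h
        omega
      · rw [Finset.mem_singleton] at h
        omega)
    (by
      intro a ha
      have := (Finset.mem_Ico.mp ha).1
      omega)
  have : NeZero M := ⟨by omega⟩
  have hFits : ∀ a ∈ Ico 1 (Y' + 1), Fits B M a := by
    intro a ha
    have := hFit 1 (by simp) a ha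
    simpa using this
  have hFitP : FitsProd B M F (Ico Y Y') := by
    intro q hq a ha
    obtain ⟨ha1, ha2⟩ := Finset.mem_Ico.mp ha
    exact hFit q (Finset.mem_union_left _ hq) a (Finset.mem_Ico.mpr ⟨by omega, by omega⟩)
  have hKLb := hY0 Y Y' hY0Y hY'le β hMA k hk1 hkx B M hM2 hFits
  have hMom := BB_moment (B := B) (M := M) k hk1 F (Ico Y Y') β hFitP
  exact ⟨_, hMom, hKLb⟩

/-- A single good twist at a power scale. -/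
theorem ML_good_L (c₄ ν : ℝ) (hc₄ : 0 < c₄) (hν : 0 < ν) (hν1 : ν ≤ 1 / 16) :
    ∃ n0 : ℕ, ∃ C : ℝ, 0 < C ∧ ∀ n : ℕ, n0 ≤ n → ∀ F : Finset ℕ, (∀ q ∈ F, 1 ≤ q) → 1 ≤ F.card →
      (F.card : ℝ) ≤ 2 * 2 ^ n * GG n → ∀ (Mm d : ℕ) (β : ℝ), 1 ≤ d → ((2:ℝ) ^ n) ^ c₄ ≤ (Mm:ℝ) / d → Mm ≤ 2 ^ n →
      MA β ⌊((Yd Mm d : ℕ):ℝ) ^ ν⌋₊ (((Yd Mm d : ℕ):ℝ) ^ (-(1 / 4 : ℝ))) →
      (BBc F (Nn Mm d) (Nn Mm d) β).re ≤ (F.card : ℝ) * ((Mm:ℝ) / d + 1) * Real.exp (C * Real.log ((n:ℝ) + 2) ^ 3) := by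
  obtain ⟨Y0, hY0⟩ := KL_L ν hν hν1
  obtain ⟨L0, hL0e, hL0⟩ := exists_L0
  have hAL : (0:ℝ) < AL := by
    unfold AL
    norm_num
  have hlog2 : 0 < Real.log 2 := Real.log_pos (by norm_num)
  obtain ⟨c', hc'⟩ : ∃ c' : ℝ, c' = c₄ * Real.log 2 / 2 := ⟨_, rfl⟩
  have hc'pos : 0 < c' := by rw [hc']; positivity
  have hL01 : (1:ℝ) ≤ L0 := by
    have := Real.add_one_le_exp (1:ℝ)
    linarith
  -- the threshold for `n`
  obtain ⟨n0, hn0⟩ : ∃ n0 : ℕ, max ((Y0:ℝ) + 1) L0 / (c₄ * Real.log 2) + 1 ≤ n0 := by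
    obtain ⟨m, hm⟩ := exists_nat_ge (max ((Y0:ℝ) + 1) L0 / (c₄ * Real.log 2) + 1)
    exact ⟨m, hm⟩
  -- the constant
  obtain ⟨C1, hC1⟩ : ∃ C1 : ℝ, C1 = 204 * AL / c' := ⟨_, rfl⟩
  have hC1pos : 0 < C1 := by rw [hC1]; positivity
  refine ⟨n0, C1 + 1, by linarith, ?_⟩
  intro n hn F hFpos hF1 hFcard Mm d β hd hpow hMm hMA
  have hnn0 : (n0:ℝ) ≤ n := by exact_mod_cast hn
  obtain ⟨Y, hYdef⟩ : ∃ Y : ℕ, Y = Yd Mm d := ⟨_, rfl⟩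
  obtain ⟨Y', hY'def⟩ : ∃ Y' : ℕ, Y' = Yd' Mm d := ⟨_, rfl⟩
  rw [← hYdef] at hMA
  have hd0 : (1:ℝ) ≤ d := by exact_mod_cast hd
  have hMmd : (Mm:ℝ) / d ≤ 2 ^ n := by
    have h1 : (Mm:ℝ) ≤ 2 ^ n := by exact_mod_cast hMm
    have h2 : (Mm:ℝ) / d ≤ Mm := div_le_self (Nat.cast_nonneg _) hd0
    linarith
  have hYu : (Y:ℝ) ≤ (Mm:ℝ) / d + 1 := by
    rw [hYdef]
    exact Yd_upper Mm d hd
  have hYl : ((2:ℝ) ^ n) ^ c₄ ≤ (Y:ℝ) := by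
    rw [hYdef]
    exact le_trans hpow (Yd_lower Mm d hd)
  have hYu2 : (Y:ℝ) ≤ 2 ^ (n + 1) := by
    have : (1:ℝ) ≤ 2 ^ n := one_le_pow₀ (by norm_num)
    rw [pow_succ]
    linarith
  obtain ⟨hY0Y, hY1, hc'n, hlogYL0, hlogu, hn1⟩ :=
    good_params c₄ hc₄ Y0 L0 hL01 n (le_trans hn0 hnn0) Y hYl hYu2
  rw [← hc'] at hc'n
  have hYpos : (0:ℝ) < Y := by exact_mod_cast hY1
  have hlogY1 : 1 ≤ Real.log Y := le_trans hL01 hlogYL0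
  -- `g = log log Y`
  obtain ⟨g, hgdef⟩ : ∃ g : ℝ, g = gL Y := ⟨_, rfl⟩
  have hg : g = Real.log (Real.log Y) := hgdef
  have hg1 : 1 ≤ g := by
    rw [hg, Real.le_log_iff_exp_le (by linarith)]
    linarith
  have hgu : g ≤ Real.log ((n:ℝ) + 2) := by
    rw [hg]
    exact Real.log_le_log (by linarith) (by linarith)
  have hgpos : 0 < g := by linarith
  obtain ⟨k, hk1, hkx, hxk⟩ := good_floor (Real.log Y) g hgpos (by
    rw [hg]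
    exact hL0 _ hlogYL0)
  have hkpos : (0:ℝ) < k := by
    have h2 : (1:ℝ) ≤ k := by exact_mod_cast hk1
    linarith
  have hY'le : Y' ≤ 2 * Y := by
    rw [hY'def, hYdef]
    exact Yd'_le Mm d hd
  have hNn : Nn Mm d = Ico Y Y' := by
    rw [hYdef, hY'def]
    exact Nn_eq Mm d hd
  rw [hNn]
  obtain ⟨nrm, hMom, hKLb⟩ := good_moment Y0 ν hY0 F hFpos Y Y' hY1 hY0Y hY'le β hMA k hk1
    (by rw [← hgdef]; exact hkx)
  rw [← hgdef] at hKLb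
  have hKpos : (0:ℝ) < F.card := by exact_mod_cast hF1
  have hlogK := log_card_le n F.card hF1 hFcard
  have hratio : Real.log F.card / k ≤ C1 * g ^ 3 := by
    rw [hC1]
    exact good_ratio _ _ _ _ _ _ hgpos hc'pos hkpos hlogK (by linarith) hc'n hxk
  exact good_assemble _ _ _ _ _ g C1 _ k hKpos hC1pos hg1 hgu hYpos.le hratio hMom hKLb hYu

end

end Vale.Agent.Lib.P028L
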