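import Vale.Agent.Lib.P028L.MLgoodL
import Vale.Agent.Lib.P028K.MLsmall

/-! Part MLsmallL: small `d`. Copy of the end of `ML_small` of `P028K`, with `ML_good_L`. -/

open Finset

namespace Vale.Agent.Lib.P028L

open Vale.Agent.Lib.P028
open Vale.Agent.Lib.P028T
open Vale.Agent.Lib.P028G
open Vale.Agent.Lib.P028K

noncomputable section

/-- The numeric comparison of the good pairs with the level. -/
lemma ev_good_L (C : ℝ) (hC : 0 < C) :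
    ∀ᶠ n : ℕ in Filter.atTop,
      4 * ((n : ℝ) + 1) * Real.exp (C * Real.log ((n : ℝ) + 2) ^ 3) ≤ Real.exp (XL n / 2) := by
  have h1 : Filter.Tendsto (fun n : ℕ => Real.log ((n : ℝ) + 2)) Filter.atTop Filter.atTop :=
    Real.tendsto_log_atTop.comp
      (Filter.tendsto_atTop_add_const_right _ _ tendsto_natCast_atTop_atTop)
  filter_upwards [h1.eventually_ge_atTop (max 1 (8 * (C + 2 + Real.log 4)))] with n hn
  obtain ⟨g, hg⟩ : ∃ g, g = Real.log ((n : ℝ) + 2) := ⟨_, rfl⟩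
  rw [← hg] at hn ⊢
  have hg1 : 1 ≤ g := (le_max_left _ _).trans hn
  have hg2 : 8 * (C + 2 + Real.log 4) ≤ g := (le_max_right _ _).trans hn
  have hn0 : (0 : ℝ) < (n : ℝ) + 1 := by positivity
  have hlog : Real.log ((n : ℝ) + 1) ≤ g := by
    rw [hg]
    exact Real.log_le_log hn0 (by linarith)
  have hlog4 : 0 ≤ Real.log 4 := Real.log_nonneg (by norm_num)
  have hg3 : 1 ≤ g ^ 3 := one_le_pow₀ hg1
  have hg3' : g ≤ g ^ 3 := by nlinarith [mul_self_nonneg (g - 1), mul_pos (show (0 : ℝ) < g by linarith) (show (0 : ℝ) < g by linarith)]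
  have key : Real.log 4 + Real.log ((n : ℝ) + 1) + C * g ^ 3 ≤ XL n / 2 := by
    have h2 : XL n / 2 = g ^ 3 * (g / 8) := by
      unfold XL
      rw [← hg]
      ring
    rw [h2]
    have h3 : C + 2 + Real.log 4 ≤ g / 8 := by linarith
    have h4 : g ^ 3 * (C + 2 + Real.log 4) ≤ g ^ 3 * (g / 8) :=
      mul_le_mul_of_nonneg_left h3 (by positivity)
    have h5 : Real.log 4 * 1 ≤ Real.log 4 * g ^ 3 := mul_le_mul_of_nonneg_left hg3 hlog4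
    nlinarith
  calc 4 * ((n : ℝ) + 1) * Real.exp (C * g ^ 3)
      = Real.exp (Real.log 4 + Real.log ((n : ℝ) + 1) + C * g ^ 3) := by
        rw [Real.exp_add, Real.exp_add, Real.exp_log (by norm_num), Real.exp_log hn0]
    _ ≤ _ := Real.exp_le_exp.2 key

/-- Small `d`. Proof: as `ML_small` (public `ml_core`, `ev_num`, `rpow_le_div_of_le_floor`), with `ML_good_L`
and `4 (n+1) exp (C log(n+2)^3) ≤ exp (XL n / 2)` for large `n`. -/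
theorem ML_small_L {γ c₀ : ℝ} {κ : ℕ} (hγ : Dio γ c₀ κ) (hc₀ : 0 < c₀) (hκ : 1 ≤ κ) :
    ∃ n0 : ℕ, ∀ n : ℕ, n0 ≤ n → ∀ F : Finset ℕ, (∀ q ∈ F, 1 ≤ q) → 1 ≤ F.card →
      (2:ℝ) ^ n ≤ F.card → (F.card : ℝ) ≤ 2 * 2 ^ n * GG n → ∀ Mm L0 : ℕ, ((2:ℝ) ^ n) ^ ((1:ℝ) / (4 * ((κ:ℝ) + 1))) ≤ Mm → Mm ≤ 2 ^ n →
      1 ≤ L0 → L0 ≤ 2 ^ n →
      ∑ j ∈ Ico 1 L0, ∑ d ∈ Icc 1 ⌊(Mm:ℝ) ^ (1 - (1:ℝ) / (8 * κ))⌋₊, (BBc F (Nn Mm d) (Nn Mm d) (((j * d : ℕ):ℝ) * γ)).re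
        ≤ (L0:ℝ) * F.card * Mm * Real.exp (XL n / 2) := by
  have hk1 : (1 : ℝ) ≤ κ := by exact_mod_cast hκ
  have hk0 : (0 : ℝ) < κ := by linarith
  obtain ⟨a, ha⟩ : ∃ a : ℝ, a = (1 : ℝ) / (4 * ((κ : ℝ) + 1)) := ⟨_, rfl⟩
  have ha0 : 0 < a := by rw [ha]; positivity
  obtain ⟨c, hc⟩ : ∃ c : ℝ, c = (1 : ℝ) / (8 * κ) := ⟨_, rfl⟩
  have hc0 : 0 < c := by rw [hc]; positivity
  have hc1 : c ≤ 1 := by
    rw [hc, div_le_one (by positivity)]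
    linarith
  obtain ⟨ν, hν⟩ : ∃ ν : ℝ, ν = (1 : ℝ) / (128 * (κ : ℝ) ^ 2) := ⟨_, rfl⟩
  have hν0 : 0 < ν := by rw [hν]; positivity
  have hν16 : ν ≤ 1 / 16 := by
    rw [hν, div_le_div_iff₀ (by positivity) (by norm_num)]
    nlinarith
  obtain ⟨δ, hδ⟩ : ∃ δ : ℝ, δ = (1 : ℝ) / (1024 * (κ : ℝ) ^ 2 * ((κ : ℝ) + 1)) := ⟨_, rfl⟩
  have hδ0 : 0 < δ := by rw [hδ]; positivity
  obtain ⟨n1, C, hC, hML⟩ := ML_good_L (a * c) ν (by positivity) hν0 hν16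
  obtain ⟨Cτ, hCτ, hτ⟩ := tau_le δ hδ0
  have ev := (ev_num κ hκ c₀ Cτ hc₀ hCτ).and (ev_good_L C hC)
  obtain ⟨n2, hn2⟩ := Filter.eventually_atTop.1 ev
  refine ⟨max (max n1 n2) 1, ?_⟩
  intro n hn F hF hK1 hK2 hK Mm L0 hM1 hM2 hL1 hL2
  have hn1 : n1 ≤ n := (le_max_left _ _).trans ((le_max_left _ _).trans hn)
  have hn2' : n2 ≤ n := (le_max_right _ _).trans ((le_max_left _ _).trans hn)
  have hn3 : 1 ≤ n := (le_max_right _ _).trans hn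
  obtain ⟨hnum, hgoodnum⟩ := hn2 n hn2'
  have hN1 : (1 : ℝ) ≤ (2 : ℝ) ^ n := one_le_pow₀ (by norm_num)
  have hpowa : (1 : ℝ) ≤ ((2 : ℝ) ^ n) ^ ((1 : ℝ) / (4 * ((κ : ℝ) + 1))) :=
    Real.one_le_rpow hN1 (by positivity)
  have hMm1 : 1 ≤ Mm := by
    have : (1 : ℝ) ≤ Mm := hpowa.trans hM1
    exact_mod_cast this
  have hM0 : (0 : ℝ) < Mm := by exact_mod_cast hMm1
  have hM2' : (Mm : ℝ) ≤ (2 : ℝ) ^ n := by exact_mod_cast hM2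
  obtain ⟨hD1, hnum2⟩ := hnum (Mm : ℝ) hM1 hM2'
  rw [← hc, ← hν, ← hδ] at hnum2
  rw [← hc] at hD1
  rw [← hc]
  have hgood : ∀ d j : ℕ, 1 ≤ d → d ≤ ⌊(Mm : ℝ) ^ (1 - c)⌋₊ →
      MA (((j * d : ℕ) : ℝ) * γ) ⌊((Yd Mm d : ℕ) : ℝ) ^ ν⌋₊ (((Yd Mm d : ℕ) : ℝ) ^ (-(1 / 4 : ℝ))) →
      (BBc F (Nn Mm d) (Nn Mm d) (((j * d : ℕ) : ℝ) * γ)).re ≤
        (F.card : ℝ) * ((Mm : ℝ) / d + 1) * Real.exp (C * Real.log ((n : ℝ) + 2) ^ 3) := by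
    intro d j hd hdle hMA
    refine hML n hn1 F hF hK1 hK Mm d _ hd ?_ hM2 hMA
    refine le_trans ?_ (rpow_le_div_of_le_floor hMm1 hd hdle)
    rw [Real.rpow_mul (by positivity)]
    apply Real.rpow_le_rpow (by positivity) _ hc0.le
    rw [ha]
    exact hM1
  have hcore := ml_core hγ hc₀ hκ hn3 hF hK1 hK2 hK hMm1 hM2 hL1 hL2 (c := c) (ν := ν)
    (E := Real.exp (C * Real.log ((n : ℝ) + 2) ^ 3)) (Cτ := Cτ) (δ := δ) hc0 hc1 hν0 (by linarith)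
    (Real.exp_pos _).le hCτ hδ0 hτ hgood hD1 hnum2
  refine hcore.trans ?_
  apply mul_le_mul_of_nonneg_left _ (by positivity)
  have hX1 : (1 : ℝ) ≤ Real.exp (XL n / 2) := by
    apply Real.one_le_exp
    unfold XL
    positivity
  have h3 : 2 * (1 + (n : ℝ)) * Real.exp (C * Real.log ((n : ℝ) + 2) ^ 3) =
      (4 * ((n : ℝ) + 1) * Real.exp (C * Real.log ((n : ℝ) + 2) ^ 3)) / 2 := by ring
  rw [h3]
  linarith

end

end Vale.Agent.Lib.P028L
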